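import Vale.Agent.P004G.H3.FnSer
import Vale.Agent.P004G.H1a

/-!
# P004: exchange of sums and integrals for the twisted second moment
-/

open Real MeasureTheory Set
open scoped ENNReal

namespace P004G.H628

variable [Crv]

open P004G.H3

lemma chi_mul2 (h : ℤ) {m n : ℕ} (hm : m ≠ 0) (hn : n ≠ 0) :
    chi h (m * n) = chi h m * chi h n := H1.chi_mul h hm hn

lemma bet_zero (hC : StCoef) (f : ℝ → ℝ) : bet f 0 = 0 := by
  unfold bet; rw [hC.zero]; simp

lemma summable_bet2 (hC : StCoef) {f : ℝ → ℝ} {U : ℝ} (hU : 0 < U) (hf1 : ∀ u, |f u| ≤ 1)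
    (hf0 : ∀ u, u < U → f u = 0) :
    Summable fun p : ℕ × ℕ => |bet f p.1| * |bet f p.2| :=
  (summable_bet hC hU hf1 hf0).mul_of_nonneg (summable_bet hC hU hf1 hf0)
    (fun _ => abs_nonneg _) (fun _ => abs_nonneg _)

/-- exchange of the sums over `h` and over `n₁, n₂` -/
theorem exchange2 (hC : StCoef) {f : ℝ → ℝ} {U H : ℝ} (hU : 0 < U) (hH : 0 < H)
    (hfm : Measurable f) (hf1 : ∀ u, |f u| ≤ 1) (hf0 : ∀ u, u < U → f u = 0) {ν : ℕ} (hν : ν ≠ 0) :
    ∑' h : ℤ, H1.ah H h * chi h ν * Fn f h ^ 2 =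
      ∑' p : ℕ × ℕ, bet f p.1 * bet f p.2 * ∑' h : ℤ, H1.ah H h * chi h (ν * p.1 * p.2) := by
  have hs1 : Summable fun p : ℤ × (ℕ × ℕ) => (H1.ah H p.1 * chi p.1 ν) *
      ((bet f p.2.1 * chi p.1 p.2.1) * (bet f p.2.2 * chi p.1 p.2.2)) := by
    have h1 : Summable fun p : ℤ × (ℕ × ℕ) => H1.ah H p.1 * (|bet f p.2.1| * |bet f p.2.2|) :=
      (H1.summable_ah hH).mul_of_nonneg (summable_bet2 hC hU hf1 hf0)
        (fun h => H1.ah_nonneg H h) (fun n => by positivity)
    refine Summable.of_norm_bounded h1 fun p => ?_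
    simp only [norm_mul, Real.norm_eq_abs]
    rw [abs_of_nonneg (H1.ah_nonneg _ _)]
    have h2 := abs_chi_le p.1 ν
    have h3 := abs_chi_le p.1 p.2.1
    have h5 := abs_chi_le p.1 p.2.2
    have h4 := H1.ah_nonneg H p.1
    calc H1.ah H p.1 * |chi p.1 ν| * (|bet f p.2.1| * |chi p.1 p.2.1| *
          (|bet f p.2.2| * |chi p.1 p.2.2|))
        ≤ H1.ah H p.1 * 1 * (|bet f p.2.1| * 1 * (|bet f p.2.2| * 1)) := by gcongr
      _ = _ := by ring
  calc ∑' h : ℤ, H1.ah H h * chi h ν * Fn f h ^ 2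
      = ∑' h : ℤ, ∑' p : ℕ × ℕ, (H1.ah H h * chi h ν) *
          ((bet f p.1 * chi h p.1) * (bet f p.2 * chi h p.2)) := by
        refine tsum_congr fun h => ?_
        have h1 := summable_bet_chi hC hU hf1 hf0 h
        rw [Fn_eq hC hU hfm hf1 hf0, tsum_mul_left, sq,
          tsum_mul_tsum_of_summable_norm h1.norm h1.norm]
    _ = ∑' p : ℕ × ℕ, ∑' h : ℤ, (H1.ah H h * chi h ν) *
          ((bet f p.1 * chi h p.1) * (bet f p.2 * chi h p.2)) := by
        exact (Summable.tsum_comm (f := fun (h : ℤ) (p : ℕ × ℕ) =>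
          (H1.ah H h * chi h ν) * ((bet f p.1 * chi h p.1) * (bet f p.2 * chi h p.2))) hs1).symm
    _ = _ := by
        refine tsum_congr fun p => ?_
        rcases Nat.eq_zero_or_pos p.1 with h1 | h1
        · rw [h1, bet_zero hC]; simp
        rcases Nat.eq_zero_or_pos p.2 with h2 | h2
        · rw [h2, bet_zero hC]; simp
        rw [← tsum_mul_left]
        refine tsum_congr fun h => ?_
        rw [chi_mul2 h (mul_ne_zero hν h1.ne') h2.ne', chi_mul2 h hν h1.ne']
        ring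

lemma abs_rho_le (n : ℕ) : |rho n| ≤ 1 := by
  unfold rho
  split_ifs
  · have hp01 : ∀ p ∈ n.primeFactors, 0 ≤ 1 - 1 / (p : ℝ) := by
      intro p hp
      have hp1 : (1 : ℝ) ≤ p := by exact_mod_cast (Nat.prime_of_mem_primeFactors hp).one_lt.le
      have : 1 / (p : ℝ) ≤ 1 := by rw [div_le_one (by linarith)]; exact hp1
      linarith
    rw [abs_of_nonneg (Finset.prod_nonneg hp01)]
    refine Finset.prod_le_one hp01 (fun p hp => ?_)
    have : 0 ≤ 1 / (p : ℝ) := by positivity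
    linarith
  · simp

/-- the trivial bound for `Eh` -/
lemma abs_Eh_le {H : ℝ} (hH : 0 < H) (n : ℕ) : |Eh H n| ≤ (∑' h : ℤ, H1.ah H h) + 5040 * H := by
  unfold Eh
  refine (abs_sub _ _).trans (add_le_add ?_ ?_)
  · rw [← Real.norm_eq_abs]
    refine tsum_of_norm_bounded (H1.summable_ah hH).hasSum fun h => ?_
    rw [norm_mul, Real.norm_of_nonneg (H1.ah_nonneg _ _), Real.norm_eq_abs]
    exact mul_le_of_le_one_right (H1.ah_nonneg _ _) (abs_chi_le _ _)
  · rw [abs_mul, abs_of_nonneg (by positivity)]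
    exact mul_le_of_le_one_right (by positivity) (abs_rho_le _)

/-- the difference in the twisted second moment as a sum over pairs -/
theorem diff_eq (hC : StCoef) {f : ℝ → ℝ} {U H : ℝ} (hU : 0 < U) (hH : 0 < H)
    (hfm : Measurable f) (hf1 : ∀ u, |f u| ≤ 1) (hf0 : ∀ u, u < U → f u = 0) {ν : ℕ} (hν : ν ≠ 0) :
    (∑' h : ℤ, H1.ah H h * chi h ν * Fn f h ^ 2) -
      5040 * H * ∑' p : ℕ × ℕ, bet f p.1 * bet f p.2 * rho (ν * p.1 * p.2) =
      ∑' p : ℕ × ℕ, bet f p.1 * bet f p.2 * Eh H (ν * p.1 * p.2) := by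
  have hsb := summable_bet2 hC hU hf1 hf0
  have hsr : Summable fun p : ℕ × ℕ => bet f p.1 * bet f p.2 * rho (ν * p.1 * p.2) := by
    refine Summable.of_norm_bounded hsb fun p => ?_
    rw [norm_mul, norm_mul, Real.norm_eq_abs, Real.norm_eq_abs, Real.norm_eq_abs]
    exact mul_le_of_le_one_right (by positivity) (abs_rho_le _)
  have hsE : Summable fun p : ℕ × ℕ => bet f p.1 * bet f p.2 * Eh H (ν * p.1 * p.2) := by
    refine Summable.of_norm_bounded (hsb.mul_right ((∑' h : ℤ, H1.ah H h) + 5040 * H)) fun p => ?_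
    rw [norm_mul, norm_mul, Real.norm_eq_abs, Real.norm_eq_abs, Real.norm_eq_abs]
    exact mul_le_mul_of_nonneg_left (abs_Eh_le hH _) (by positivity)
  rw [exchange2 hC hU hH hfm hf1 hf0 hν, ← tsum_mul_left, sub_eq_iff_eq_add,
    ← hsE.tsum_add (hsr.mul_left _)]
  refine tsum_congr fun p => ?_
  unfold Eh
  ring

/-- the double sum under the integral sign -/
noncomputable def Ker (H : ℝ) (ν : ℕ) (u₁ u₂ : ℝ) : ℝ :=
  16 * ∑' p : ℕ × ℕ, (ca p.1 : ℝ) * (ca p.2 : ℝ) * Real.exp (-π * (p.1 * u₁ + p.2 * u₂)) *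
    Eh H (ν * p.1 * p.2)

/-- the difference as an integral of the kernel -/
theorem diff_le (hC : StCoef) {f : ℝ → ℝ} {U H : ℝ} (hU : 0 < U) (hH : 0 < H)
    (hfm : Measurable f) (hf1 : ∀ u, |f u| ≤ 1) (hf0 : ∀ u, u < U → f u = 0) (ν : ℕ) :
    ENNReal.ofReal |∑' p : ℕ × ℕ, bet f p.1 * bet f p.2 * Eh H (ν * p.1 * p.2)| ≤
      ∫⁻ z : ℝ × ℝ, ENNReal.ofReal |f z.1| * ENNReal.ofReal |f z.2| *
        ENNReal.ofReal |Ker H ν z.1 z.2| := by
  set G : ℕ → ℝ → ℝ := fun n u => 4 * (ca n : ℝ) * (Real.exp (-π * n * u) * f u) with hG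
  have hpi := Real.pi_pos
  have hGint : ∀ n : ℕ, IntegrableOn (G n) (Ioi 0) := by
    intro n
    rcases Nat.eq_zero_or_pos n with rfl | hn
    · have : G 0 = fun _ => 0 := by
        funext u
        simp only [hG, hC.zero]
        simp
      rw [this]
      exact integrable_zero _ _ _
    have hnR : (0 : ℝ) < n := by exact_mod_cast hn
    refine Integrable.const_mul ?_ _
    have h1 : IntegrableOn (fun u : ℝ => Real.exp (-(π * n) * u)) (Ioi 0) :=
      exp_neg_integrableOn_Ioi 0 (by positivity)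
    refine Integrable.mono h1 ?_ ?_
    · exact ((by fun_prop : Measurable fun u : ℝ => Real.exp (-π * n * u)).mul
        hfm).aestronglyMeasurable
    · refine Filter.Eventually.of_forall fun u => ?_
      rw [norm_mul, Real.norm_of_nonneg (Real.exp_pos _).le,
        Real.norm_of_nonneg (Real.exp_pos _).le]
      have e : -(π * n) * u = -π * n * u := by ring
      rw [e]
      exact mul_le_of_le_one_right (Real.exp_pos _).le (hf1 u)
  have hGval : ∀ n : ℕ, ∫ u in Ioi (0 : ℝ), G n u = bet f n := by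
    intro n
    simp only [hG]
    rw [integral_const_mul]
    rfl
  have hGnorm : ∀ n : ℕ, ∫ u in Ioi (0 : ℝ), ‖G n u‖ = |bet (fun u => |f u|) n| := by
    intro n
    have hI : 0 ≤ ∫ u in Ioi (0 : ℝ), Real.exp (-π * n * u) * |f u| :=
      integral_nonneg fun u => by positivity
    unfold bet
    rw [abs_mul, abs_mul, abs_of_pos (show (0 : ℝ) < 4 by norm_num), abs_of_nonneg hI,
      ← integral_const_mul]
    refine setIntegral_congr_fun measurableSet_Ioi fun u _ => ?_
    simp only [hG]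
    rw [norm_mul, norm_mul, norm_mul, Real.norm_eq_abs, Real.norm_eq_abs, Real.norm_eq_abs,
      Real.norm_eq_abs, abs_of_pos (show (0 : ℝ) < 4 by norm_num), abs_of_pos (Real.exp_pos _)]
  set μ : Measure ℝ := volume.restrict (Ioi 0) with hμ
  set F : ℕ × ℕ → ℝ × ℝ → ℝ := fun p z => Eh H (ν * p.1 * p.2) * (G p.1 z.1 * G p.2 z.2) with hF
  have hFint : ∀ p, Integrable (F p) (μ.prod μ) := by
    intro p
    exact ((hGint p.1).mul_prod (hGint p.2)).const_mul _
  have hFval : ∀ p, ∫ z, F p z ∂(μ.prod μ) = bet f p.1 * bet f p.2 * Eh H (ν * p.1 * p.2) := by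
    intro p
    simp only [hF]
    rw [integral_const_mul, integral_prod_mul, hGval, hGval]
    ring
  have hFnorm : Summable fun p => ∫ z, ‖F p z‖ ∂(μ.prod μ) := by
    have habs1 : ∀ u, |(|f u|)| ≤ 1 := fun u => by rw [abs_abs]; exact hf1 u
    have habs0 : ∀ u, u < U → |f u| = 0 := fun u hu => by rw [hf0 u hu, abs_zero]
    have hsb := summable_bet2 hC (f := fun u => |f u|) hU habs1 habs0
    refine Summable.of_nonneg_of_le (fun p => integral_nonneg fun z => norm_nonneg _) (fun p => ?_)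
      (hsb.mul_left ((∑' h : ℤ, H1.ah H h) + 5040 * H))
    have e : ∫ z, ‖F p z‖ ∂(μ.prod μ) = |Eh H (ν * p.1 * p.2)| *
        (|bet (fun u => |f u|) p.1| * |bet (fun u => |f u|) p.2|) := by
      rw [← hGnorm, ← hGnorm, ← integral_prod_mul, ← integral_const_mul]
      refine integral_congr_ae (Filter.Eventually.of_forall fun z => ?_)
      simp only [hF]
      rw [norm_mul, norm_mul, Real.norm_eq_abs]
    rw [e]
    exact mul_le_mul_of_nonneg_right (abs_Eh_le hH _) (by positivity)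
  have hmain := integral_tsum_of_summable_integral_norm hFint hFnorm
  simp only [hFval] at hmain
  rw [hmain]
  have hsum : ∀ z : ℝ × ℝ, ∑' p, F p z = f z.1 * f z.2 * Ker H ν z.1 z.2 := by
    intro z
    unfold Ker
    rw [← tsum_mul_left, ← tsum_mul_left]
    refine tsum_congr fun p => ?_
    simp only [hF, hG]
    rw [show -π * (p.1 * z.1 + p.2 * z.2) = -π * p.1 * z.1 + -π * p.2 * z.2 by ring, Real.exp_add]
    ring
  calc ENNReal.ofReal |∫ z, ∑' p, F p z ∂(μ.prod μ)|
      = ‖∫ z, ∑' p, F p z ∂(μ.prod μ)‖ₑ := by rw [← Real.norm_eq_abs, ofReal_norm]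
    _ ≤ ∫⁻ z, ‖∑' p, F p z‖ₑ ∂(μ.prod μ) := enorm_integral_le_lintegral_enorm _
    _ = ∫⁻ z, ENNReal.ofReal |f z.1| * ENNReal.ofReal |f z.2| *
          ENNReal.ofReal |Ker H ν z.1 z.2| ∂(μ.prod μ) := by
        refine lintegral_congr fun z => ?_
        rw [hsum, ← ofReal_norm, norm_mul, norm_mul, Real.norm_eq_abs, Real.norm_eq_abs,
          Real.norm_eq_abs, ENNReal.ofReal_mul (by positivity), ENNReal.ofReal_mul (abs_nonneg _)]
    _ ≤ _ := by
        rw [hμ, Measure.prod_restrict]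
        exact setLIntegral_le_lintegral _ _

end P004G.H628
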