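import Vale.Agent.P004G.H628.Ex2
import Vale.Agent.P004G.H253.TwDefs

/-!
# P004: `Toff` as a double sum
-/

open Real MeasureTheory Set
open scoped ENNReal

namespace P004G.H628

variable [Crv]

open P004G.H3

/-- the coefficient `a_{n₁} a_{n₂} e^{-π(n₁ u₁ + n₂ u₂)}` -/
noncomputable def cc (u₁ u₂ : ℝ) (p : ℕ × ℕ) : ℝ :=
  (ca p.1 * ca p.2) * Real.exp (-π * (p.1 * u₁ + p.2 * u₂))

/-- the weight of one variable -/
noncomputable def c1 (u : ℝ) (n : ℕ) : ℝ := (ca n : ℝ) * Real.exp (-π * n * u)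

lemma cc_eq (u₁ u₂ : ℝ) (p : ℕ × ℕ) : cc u₁ u₂ p = c1 u₁ p.1 * c1 u₂ p.2 := by
  unfold cc c1
  rw [show -π * ((p.1 : ℝ) * u₁ + p.2 * u₂) = -π * p.1 * u₁ + -π * p.2 * u₂ by ring, Real.exp_add]
  ring

lemma abs_c1_le (hC : StCoef) (u : ℝ) (n : ℕ) :
    |c1 u n| ≤ (n : ℝ) ^ 2 * Real.exp (-(π * u) * n) := by
  unfold c1
  rw [abs_mul, abs_of_pos (Real.exp_pos _), show -π * n * u = -(π * u) * n by ring]
  exact mul_le_mul_of_nonneg_right (H1.abs_ca_le hC n) (Real.exp_pos _).le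

lemma summable_c1 (hC : StCoef) {u : ℝ} (hu : 0 < u) (k : ℕ) :
    Summable fun n : ℕ => |c1 u n| * (n : ℝ) ^ k := by
  have h1 := Real.summable_pow_mul_exp_neg_nat_mul (k + 2) (r := π * u) (by positivity)
  refine Summable.of_nonneg_of_le (fun n => by positivity) (fun n => ?_) h1
  calc |c1 u n| * (n : ℝ) ^ k ≤ ((n : ℝ) ^ 2 * Real.exp (-(π * u) * n)) * (n : ℝ) ^ k :=
        mul_le_mul_of_nonneg_right (abs_c1_le hC u n) (by positivity)
    _ = (n : ℝ) ^ (k + 2) * Real.exp (-(π * u) * n) := by ring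

lemma summable_cc (hC : StCoef) {u₁ u₂ : ℝ} (h₁ : 0 < u₁) (h₂ : 0 < u₂) (k : ℕ) :
    Summable fun p : ℕ × ℕ => |cc u₁ u₂ p| * ((p.1 : ℝ) * p.2) ^ k := by
  have h := (summable_c1 hC h₁ k).mul_of_nonneg (summable_c1 hC h₂ k)
    (fun n => by positivity) (fun n => by positivity)
  refine h.congr fun p => ?_
  rw [cc_eq, abs_mul, mul_pow]
  ring

lemma theta_mul (hC : StCoef) (h : ℤ) {u₁ u₂ : ℝ} (h₁ : 0 < u₁) (h₂ : 0 < u₂) :
    theta h u₁ * theta h u₂ = 16 * ∑' p : ℕ × ℕ, cc u₁ u₂ p * chi h (p.1 * p.2) := by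
  have hs : ∀ {u : ℝ}, 0 < u → Summable fun n : ℕ => ‖c1 u n * chi h n‖ := fun {u} hu => by
    have := summable_c1 hC hu 0
    refine Summable.of_nonneg_of_le (fun n => norm_nonneg _) (fun n => ?_) this
    rw [norm_mul, Real.norm_eq_abs, Real.norm_eq_abs, pow_zero, mul_one]
    exact mul_le_of_le_one_right (abs_nonneg _) (H1.abs_chi_le _ _)
  have ht : ∀ u : ℝ, theta h u = 4 * ∑' n : ℕ, c1 u n * chi h n := fun u => by
    unfold theta c1
    congr 1
    exact tsum_congr fun n => by ring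
  rw [ht, ht]
  have e : (4 * ∑' n : ℕ, c1 u₁ n * chi h n) * (4 * ∑' n : ℕ, c1 u₂ n * chi h n) =
      16 * ((∑' n : ℕ, c1 u₁ n * chi h n) * ∑' n : ℕ, c1 u₂ n * chi h n) := by ring
  rw [e, tsum_mul_tsum_of_summable_norm (hs h₁) (hs h₂)]
  congr 1
  refine tsum_congr fun p => ?_
  rw [cc_eq]
  by_cases h1 : p.1 = 0
  · simp [h1, c1, hC.zero]
  by_cases h2 : p.2 = 0
  · simp [h2, c1, hC.zero]
  rw [H1.chi_mul h h1 h2]
  ring

/-- `Toff` as a sum over pairs -/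
lemma ker_eq (hC : StCoef) {H : ℝ} (hH : 0 < H) {t : ℕ} (ht : t ≠ 0) {u₁ u₂ : ℝ} (h₁ : 0 < u₁)
    (h₂ : 0 < u₂) : Ker H t u₁ u₂ = Tw.Toff H t u₁ u₂ := by
  have hcc : Summable fun p : ℕ × ℕ => |cc u₁ u₂ p| := by
    simpa using summable_cc hC h₁ h₂ 0
  have hsum : Summable (Function.uncurry fun (h : ℤ) (p : ℕ × ℕ) =>
      H1.ah H h * (cc u₁ u₂ p * chi h (t * (p.1 * p.2)))) := by
    have h2 := (H1.summable_ah hH).mul_of_nonneg hcc (H1.ah_nonneg H) (fun n => by positivity)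
    refine Summable.of_norm_bounded h2 fun x => ?_
    simp only [Function.uncurry]
    rw [norm_mul, norm_mul, Real.norm_eq_abs, Real.norm_eq_abs, Real.norm_eq_abs,
      abs_of_nonneg (H1.ah_nonneg H x.1)]
    refine mul_le_mul_of_nonneg_left ?_ (H1.ah_nonneg H x.1)
    exact mul_le_of_le_one_right (by positivity) (H1.abs_chi_le _ _)
  have e1 : ∀ h : ℤ, H1.ah H h * (chi h t * (theta h u₁ * theta h u₂)) =
      16 * ∑' p : ℕ × ℕ, H1.ah H h * (cc u₁ u₂ p * chi h (t * (p.1 * p.2))) := by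
    intro h
    rw [theta_mul hC h h₁ h₂, tsum_mul_left, ← mul_assoc, ← mul_assoc, ← mul_assoc,
      mul_comm (H1.ah H h * chi h t) 16, mul_assoc, mul_assoc, mul_assoc]
    congr 2
    rw [← tsum_mul_left]
    refine tsum_congr fun p => ?_
    by_cases hp : p.1 = 0 ∨ p.2 = 0
    · have : cc u₁ u₂ p = 0 := by
        rw [cc_eq]
        rcases hp with hp | hp <;> simp [hp, c1, hC.zero]
      rw [this]; ring
    · rw [not_or] at hp
      rw [H1.chi_mul h ht (Nat.mul_ne_zero hp.1 hp.2)]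
      ring
  have e2 : ∑' h : ℤ, H1.ah H h * (chi h t * (theta h u₁ * theta h u₂)) =
      16 * ∑' p : ℕ × ℕ, cc u₁ u₂ p * ∑' h : ℤ, H1.ah H h * chi h (t * (p.1 * p.2)) := by
    rw [tsum_congr e1, tsum_mul_left, ← hsum.tsum_comm]
    congr 1
    refine tsum_congr fun p => ?_
    rw [← tsum_mul_left]
    exact tsum_congr fun h => by ring
  have e3 : Tw.Emain t u₁ u₂ = 16 * ∑' p : ℕ × ℕ, cc u₁ u₂ p * rho (t * (p.1 * p.2)) := by
    unfold Tw.Emain cc
    congr 1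
    exact tsum_congr fun p => by ring
  unfold Tw.Toff Ker
  rw [e2, e3]
  have hs1 : Summable fun p : ℕ × ℕ =>
      cc u₁ u₂ p * ∑' h : ℤ, H1.ah H h * chi h (t * (p.1 * p.2)) := by
    refine Summable.of_norm_bounded (hcc.mul_right (∑' h : ℤ, H1.ah H h)) fun p => ?_
    rw [norm_mul, Real.norm_eq_abs]
    refine mul_le_mul_of_nonneg_left ?_ (abs_nonneg _)
    refine tsum_of_norm_bounded (H1.summable_ah hH).hasSum fun h => ?_
    rw [norm_mul, Real.norm_eq_abs, Real.norm_eq_abs, abs_of_nonneg (H1.ah_nonneg H h)]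
    exact mul_le_of_le_one_right (H1.ah_nonneg H h) (H1.abs_chi_le _ _)
  have hs2 : Summable fun p : ℕ × ℕ => cc u₁ u₂ p * (5040 * H * rho (t * (p.1 * p.2))) := by
    refine Summable.of_norm_bounded (hcc.mul_right (5040 * H)) fun p => ?_
    rw [norm_mul, Real.norm_eq_abs, Real.norm_eq_abs]
    refine mul_le_mul_of_nonneg_left ?_ (abs_nonneg _)
    rw [abs_mul, abs_of_nonneg (by positivity : (0 : ℝ) ≤ 5040 * H)]
    exact mul_le_of_le_one_right (by positivity) (abs_rho_le _)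
  have e4 : 5040 * H * (16 * ∑' p : ℕ × ℕ, cc u₁ u₂ p * rho (t * (p.1 * p.2))) =
      16 * ∑' p : ℕ × ℕ, cc u₁ u₂ p * (5040 * H * rho (t * (p.1 * p.2))) := by
    rw [← mul_assoc, mul_comm (5040 * H) 16, mul_assoc, ← tsum_mul_left]
    congr 1
    exact tsum_congr fun p => by ring
  rw [e4, ← mul_sub, ← hs1.tsum_sub hs2]
  congr 1
  refine tsum_congr fun p => ?_
  unfold Eh cc
  rw [← mul_assoc t p.1 p.2]
  ring

end P004G.H628
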